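import Vale.Agent.P048.Sat.Turbo

/-!
# P048: graph clauses for the machine of `Turbo.lean`

Same `Spec` and `Model` as in `Graph.lean`; in addition lexicographic symmetry breaking on the
columns of the independent set, with auxiliary variables.
-/

namespace Vale.Agent.P048.Sat.Turbo

open Vale.Agent.P048.Sat

/-- the columns `j`, `j + 1` agree on the rows `< i` -/
def PE (A : ℕ → ℕ → Prop) (j i : ℕ) : Prop := ∀ i', i' < i → (A i' j ↔ A i' (j + 1))

/-- the columns of the vertices `≥ jl` are lexicographically non increasing (row 0 first) -/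
def LexSorted (sp : Spec) (A : ℕ → ℕ → Prop) : Prop :=
  ∀ j, sp.jl ≤ j → j + 1 < sp.N → ∀ i, i < sp.l → PE A j i → A i (j + 1) → A i j

/-- the same order without auxiliary notions: a neighbour `i` of `j + 1` is a neighbour of `j`,
or an earlier row `t` separates the two columns in favour of `j` -/
def LexNb (sp : Spec) (A : ℕ → ℕ → Prop) : Prop :=
  ∀ j, sp.jl ≤ j → j + 1 < sp.N → ∀ i, i < sp.l → A i (j + 1) →
    A i j ∨ ∃ t, t < i ∧ A t j ∧ ¬ A t (j + 1)

theorem lexSorted_of_lexNb {sp : Spec} {A : ℕ → ℕ → Prop} (h : LexNb sp A) : LexSorted sp A := by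
  intro j hj hjN i hi hpe ha
  rcases h j hj hjN i hi ha with h1 | ⟨t, ht, h1, h2⟩
  · exact h1
  · exact absurd ((hpe t ht).1 h1) h2

/-- truth value of the variables: pairs first, then the auxiliary variables `PE A j i` -/
def tauL (sp : Spec) (A : ℕ → ℕ → Prop) (k : ℕ) : Prop :=
  if k < idx 0 sp.N then tauOf A k
  else PE A (sp.jl + (k - idx 0 sp.N) / sp.l) ((k - idx 0 sp.N) % sp.l)

section
variable {sp : Spec} {A : ℕ → ℕ → Prop}

theorem tauL_idx {u v : ℕ} (huv : u < v) (hv : v < sp.N) : tauL sp A (idx u v) ↔ A u v := by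
  unfold tauL
  rw [if_pos (idx_lt huv hv)]
  exact tauOf_idx huv

theorem tauL_ax {i j : ℕ} (hj : sp.jl ≤ j) (hi : i < sp.l) :
    tauL sp A (ax sp j i) ↔ PE A j i := by
  have e : ax sp j i = idx 0 sp.N + (j - sp.jl) * sp.l + i := rfl
  unfold tauL
  rw [if_neg (by rw [e]; omega)]
  have e2 : ax sp j i - idx 0 sp.N = i + sp.l * (j - sp.jl) := by
    rw [e, mul_comm]
    omega
  rw [e2, Nat.add_mul_div_left _ _ (by omega), Nat.add_mul_mod_self_left, Nat.div_eq_of_lt hi,
    Nat.mod_eq_of_lt hi]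
  have e3 : sp.jl + (0 + (j - sp.jl)) = j := by omega
  rw [e3]

theorem sat_pos {c x : ℕ} (hb : tbit c (pp x) = true) (ht : tauL sp A x) :
    CSat (tauL sp A) c := ⟨x, Or.inl ⟨tbit_eq hb, ht⟩⟩

theorem sat_neg {c x : ℕ} (hb : tbit c (pn x) = true) (ht : ¬ tauL sp A x) :
    CSat (tauL sp A) c := ⟨x, Or.inr ⟨tbit_eq hb, ht⟩⟩

theorem posOK_sound (hA : Model sp A) {c u v : ℕ}
    (h : posOK sp c u v = true) (huv : u < v) (hv : v < sp.N) (ha : A u v) :
    CSat (tauL sp A) c := by
  rcases bor h with h | h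
  · exact absurd ha (hA.indep u v (ble_le h) huv hv)
  · exact sat_pos h ((tauL_idx huv hv).2 ha)

theorem negOK_sound (hA : Model sp A) {c u v : ℕ}
    (h : negOK sp c u v = true) (huv : u < v) (hv : v < sp.N)
    (hc : ¬ CSat (tauL sp A) c) : A u v := by
  rcases bor h with h | h
  · exact isE_sound hA h
  · by_contra ha
    exact hc (sat_neg h (fun ht => ha ((tauL_idx huv hv).1 ht)))

theorem edgeOK_sound (hA : Model sp A) {c u v : ℕ}
    (h : edgeOK sp c u v = true) (hu : u < sp.N) (hv : v < sp.N)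
    (hc : ¬ CSat (tauL sp A) c) : A u v := by
  unfold edgeOK at h
  cases hb : Nat.ble (Nat.add u 1) v with
  | true =>
    rw [hb] at h
    exact negOK_sound hA h (ble_lt hb) hv hc
  | false =>
    rw [hb] at h
    obtain ⟨h1, h2⟩ := band h
    exact hA.symm _ _ (negOK_sound hA h2 (ble_lt h1) hu hc)

theorem chainOK_sound (hA : Model sp A) {c h0 : ℕ}
    (hc : ¬ CSat (tauL sp A) c) (tl : List ℕ) : ∀ prev, chainOK sp c h0 tl prev = true →
    (∀ z ∈ prev :: tl, z < sp.N) →
    (prev :: tl).IsChain A ∧ ∃ last, (prev :: tl).getLast? = some last ∧ last < sp.N ∧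
      endOK sp c h0 last = true := by
  induction tl with
  | nil =>
    intro prev h hN
    exact ⟨List.isChain_singleton _, prev, rfl, hN prev (by simp), h⟩
  | cons v tl ih =>
    intro prev h hN
    obtain ⟨h1, h2⟩ := band h
    obtain ⟨h3, last, h4, h5, h6⟩ := ih v h2 (fun z hz => hN z (List.mem_cons_of_mem _ hz))
    refine ⟨List.IsChain.cons_cons (edgeOK_sound hA h1 (hN prev (by simp)) (hN v (by simp)) hc)
      h3, last, ?_, h5, h6⟩
    rw [List.getLast?_cons_cons]
    exact h4

theorem seqOK_sound (hA : Model sp A) {c t : ℕ} {q : List ℕ}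
    (hq : q.length = t) (h : seqOK sp c t q = true) : CSat (tauL sp A) c := by
  by_contra hc
  obtain ⟨h1, h2⟩ := band h
  obtain ⟨hL0, hL1⟩ := band h1
  obtain ⟨h2, h3⟩ := band h2
  obtain ⟨hnd, hN⟩ := ndOK_sound q 0 h2
  cases q with
  | nil => exact absurd h3 (by simp)
  | cons h0 tl =>
    have h3' : chainOK sp c h0 tl h0 = true := h3
    obtain ⟨hch, last, hlast, hlN, hend⟩ :=
      chainOK_sound hA hc tl h0 h3' (fun z hz => (hN z hz).1)
    unfold endOK at hend
    cases hcy : sp.cyc with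
    | true =>
      rw [hcy] at hend
      exact hA.forbC hcy (h0 :: tl) hnd (fun z hz => (hN z hz).1) (by rw [hq]; exact ble_le hL0)
        (by rw [hq]; exact ble_le hL1) hch h0 last rfl hlast
        (edgeOK_sound hA hend hlN ((hN h0 (by simp)).1) hc)
    | false =>
      rw [hcy] at hend
      obtain ⟨e1, e2⟩ := band hend
      have e1' : h0 = sp.x := beq_eq e1
      have e2' : last = sp.y := beq_eq e2
      exact hA.forbP hcy (h0 :: tl) hnd (fun z hz => (hN z hz).1) (by rw [hq]; exact ble_le hL0)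
        (by rw [hq]; exact ble_le hL1) hch (by rw [← e1']; rfl) (by rw [← e2']; exact hlast)

theorem rowOK_sound {c u : ℕ} (tl : List ℕ) (h : rowOK sp c u tl = true) :
    ∀ v ∈ tl, posOK sp c u v = true := by
  induction tl with
  | nil => intro v hv; exact absurd hv (by simp)
  | cons x tl ih =>
    obtain ⟨h1, h2⟩ := band h
    intro v hv
    rcases List.mem_cons.1 hv with rfl | hv
    · exact h1
    · exact ih h2 v hv

theorem pairsOK_sound {c : ℕ} (s : List ℕ) (h : pairsOK sp c s = true)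
    (hs : s.Pairwise (· < ·)) : ∀ u ∈ s, ∀ v ∈ s, u < v → posOK sp c u v = true := by
  induction s with
  | nil => intro u hu; exact absurd hu (by simp)
  | cons x tl ih =>
    obtain ⟨h1, h2⟩ := band h
    obtain ⟨hs1, hs2⟩ := List.pairwise_cons.1 hs
    intro u hu v hv huv
    rcases List.mem_cons.1 hu with hu2 | hu2
    · rcases List.mem_cons.1 hv with hv2 | hv2
      · omega
      · rw [hu2]
        exact rowOK_sound tl h1 v hv2
    · rcases List.mem_cons.1 hv with hv2 | hv2
      · have := hs1 u hu2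
        omega
      · exact ih h2 hs2 u hu2 v hv2 huv

theorem alphaOK_sound (hA : Model sp A) {c : ℕ} {s : List ℕ}
    (hs : s.length = sp.a + 1) (h : alphaOK sp c s = true) : CSat (tauL sp A) c := by
  obtain ⟨h1, h2⟩ := band h
  obtain ⟨h3, h4⟩ := incOK_sound s 0 h1
  obtain ⟨u, hu, v, hv, huv, ha⟩ := hA.alpha s h3 hs (fun z hz => (h4 z hz).2)
  exact posOK_sound hA (pairsOK_sound s h2 h3 u hu v hv huv) huv (h4 v hv).2 ha

theorem prefOK_sound {c j : ℕ} (n : ℕ) (h : prefOK c j n = true) :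
    ∀ i, i < n → tbit c (pp (idx i j)) = true := by
  induction n with
  | zero => intro i hi; exact absurd hi (Nat.not_lt_zero i)
  | succ n ih =>
    obtain ⟨h1, h2⟩ := band h
    intro i hi
    rcases Nat.lt_succ_iff_lt_or_eq.1 hi with hi | rfl
    · exact ih h2 i hi
    · exact h1

theorem rcOK_sound {i j : ℕ} (h : rcOK sp i j = true) :
    sp.l ≤ sp.jl ∧ sp.jl ≤ j ∧ j + 1 < sp.N ∧ i < sp.l := by
  obtain ⟨hl, h1⟩ := band h
  obtain ⟨hj, h1⟩ := band h1
  obtain ⟨hjN, hi⟩ := band h1
  exact ⟨ble_le hl, ble_le hj, ble_lt hjN, ble_lt hi⟩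

theorem firstOK_sound (hA : Model sp A) {c i j : ℕ}
    (h : firstOK sp c i j = true) : CSat (tauL sp A) c := by
  obtain ⟨h1, h2⟩ := band h
  obtain ⟨hl', hj', hjN', hi'⟩ := rcOK_sound h1
  obtain ⟨hneg, hpos⟩ := band h2
  by_cases ha : A i (j + 1)
  · obtain ⟨i', hi2, ha2⟩ := hA.firstNb j hj' hjN' i hi' ha
    have hlt : i' < j := by omega
    exact sat_pos (prefOK_sound _ hpos i' (Nat.lt_succ_of_le hi2))
      ((tauL_idx hlt (by omega)).2 ha2)
  · have hlt : i < j + 1 := by omega
    exact sat_neg hneg (fun ht => ha ((tauL_idx hlt hjN').1 ht))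

theorem PE_succ {i j : ℕ} (h : PE A j i) (h2 : A i j ↔ A i (j + 1)) : PE A j (i + 1) := by
  intro i' hi'
  rcases Nat.lt_succ_iff_lt_or_eq.1 hi' with h3 | rfl
  · exact h i' h3
  · exact h2

theorem lexOK_sound (hL : LexSorted sp A) {c i j kind : ℕ}
    (h : lexOK sp c i j kind = true) : CSat (tauL sp A) c := by
  obtain ⟨h1, h2⟩ := band h
  obtain ⟨h1, hne⟩ := band h1
  obtain ⟨hl', hj', hjN', hi'⟩ := rcOK_sound h1
  have hx : i < j := by omega
  have hy : i < j + 1 := by omega
  have hjN2 : j < sp.N := by omega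
  by_cases hpe : PE A j i
  · have hlex := hL j hj' hjN' i hi' hpe
    rcases kind with _ | _ | kind
    · obtain ⟨hbx, hby⟩ := band h2
      by_cases ha : A i (j + 1)
      · exact sat_pos hbx ((tauL_idx hx hjN2).2 (hlex ha))
      · exact sat_neg hby (fun ht => ha ((tauL_idx hy hjN').1 ht))
    · obtain ⟨h3, hby⟩ := band h2
      obtain ⟨hi2, hbe⟩ := band h3
      by_cases ha : A i (j + 1)
      · exact sat_pos hbe ((tauL_ax hj' (ble_lt hi2)).2
          (PE_succ hpe ⟨fun _ => ha, fun _ => hlex ha⟩))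
      · exact sat_neg hby (fun ht => ha ((tauL_idx hy hjN').1 ht))
    · obtain ⟨h3, hbx⟩ := band h2
      obtain ⟨hi2, hbe⟩ := band h3
      by_cases ha : A i j
      · exact sat_pos hbx ((tauL_idx hx hjN2).2 ha)
      · exact sat_pos hbe ((tauL_ax hj' (ble_lt hi2)).2
          (PE_succ hpe ⟨fun h => absurd h ha, fun h => absurd (hlex h) ha⟩))
  · rcases bor hne with h0 | hb
    · have e : i = 0 := beq_eq h0
      exact absurd (fun i' hi' => absurd hi' (by omega)) hpe
    · exact sat_neg hb (fun ht => hpe ((tauL_ax hj' hi').1 ht))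

theorem prefY_sound {c j : ℕ} (n : ℕ) (h : prefY c j n = true) :
    ∀ t, t < n → tbit c (pp (idx t j)) = true ∨ tbit c (pn (idx t (j + 1))) = true := by
  induction n with
  | zero => intro i hi; exact absurd hi (Nat.not_lt_zero i)
  | succ n ih =>
    obtain ⟨h1, h2⟩ := band h
    intro i hi
    rcases Nat.lt_succ_iff_lt_or_eq.1 hi with hi | rfl
    · exact ih h2 i hi
    · exact bor h1

theorem lexNbOK_sound (hL : LexNb sp A) {c i j : ℕ}
    (h : lexNbOK sp c i j = true) : CSat (tauL sp A) c := by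
  obtain ⟨h1, h2⟩ := band h
  obtain ⟨hl', hj', hjN', hi'⟩ := rcOK_sound h1
  obtain ⟨h2, hpre⟩ := band h2
  obtain ⟨hneg, hpos⟩ := band h2
  have hjN2 : j < sp.N := by omega
  by_cases ha : A i (j + 1)
  · rcases hL j hj' hjN' i hi' ha with h3 | ⟨t, ht, h3, h4⟩
    · exact sat_pos hpos ((tauL_idx (by omega) hjN2).2 h3)
    · rcases prefY_sound i hpre t ht with h5 | h5
      · exact sat_pos h5 ((tauL_idx (by omega) hjN2).2 h3)
      · exact sat_neg h5 (fun hh => h4 ((tauL_idx (by omega) hjN').1 hh))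
  · exact sat_neg hneg (fun ht => ha ((tauL_idx (by omega) hjN').1 ht))

theorem inOK_sound (hA : Model sp A) {lx : Bool} (hL : lx = true → LexNb sp A) {c w : ℕ}
    (h : inOK sp lx c w = true) : CSat (tauL sp A) c := by
  unfold inOK at h
  generalize Nat.land w 3 = t at h
  rcases t with _ | _ | _ | t
  · exact alphaOK_sound hA (unpack_length _ _) h
  · exact seqOK_sound hA (unpack_length _ _) h
  · exact firstOK_sound hA h
  · obtain ⟨h1, h2⟩ := band h
    generalize Nat.shiftRight w 12 = k at h2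
    rcases k with _ | k
    · exact lexNbOK_sound (hL h1) h2
    · exact lexOK_sound (lexSorted_of_lexNb (hL h1)) h2

theorem runIn_sound (hA : Model sp A) {lx : Bool} (hL : lx = true → LexNb sp A)
    {cl : ℕ → ℕ} {iEnd : ℕ} (ws : List ℕ) : ∀ i, runIn sp lx cl iEnd ws i = true →
    (∀ j, j < i → CSat (tauL sp A) (cl j)) →
    ∀ j, j < iEnd → CSat (tauL sp A) (cl j) := by
  induction ws with
  | nil =>
    intro i h h0
    have e : i = iEnd := beq_eq h
    rw [← e]
    exact h0
  | cons w ws ih =>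
    intro i h h0
    obtain ⟨h1, h2⟩ := band h
    refine ih (i + 1) h2 ?_
    intro j hj
    rcases Nat.lt_succ_iff_lt_or_eq.1 hj with hj | rfl
    · exact h0 j hj
    · exact inOK_sound hA hL h1

theorem checkIn_sound (hA : Model sp A) {lx : Bool} (hL : lx = true → LexNb sp A)
    {cl : ℕ → ℕ} {i0 i1 : ℕ} {ws : List ℕ} (h : checkIn sp lx cl i0 i1 ws = true)
    (h0 : ∀ j, j < i0 → CSat (tauL sp A) (cl j)) :
    ∀ j, j < i1 → CSat (tauL sp A) (cl j) :=
  runIn_sound hA hL ws i0 h h0

end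

end Vale.Agent.P048.Sat.Turbo
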