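import Vale.Agent.P048.Sat.Core

/-!
# P048: graph clauses for the kernel checker

Vertices are natural numbers `< N`, the variable of the pair `u < v` is `idx u v`.
-/

namespace Vale.Agent.P048.Sat

/-- the relation `A` on the natural numbers is a solution of the problem `sp` -/
structure Model (sp : Spec) (A : ℕ → ℕ → Prop) : Prop where
  symm : ∀ u v, A u v → A v u
  path : ∀ u, u + 1 < sp.l → A u (u + 1)
  close : sp.cf = true → A 0 (sp.l - 1)
  indep : ∀ u v, sp.jl ≤ u → u < v → v < sp.N → ¬ A u v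
  alpha : ∀ s : List ℕ, s.Pairwise (· < ·) → s.length = sp.a + 1 → (∀ z ∈ s, z < sp.N) →
    ∃ u ∈ s, ∃ v ∈ s, u < v ∧ A u v
  forbP : sp.cyc = false → ∀ q : List ℕ, q.Nodup → (∀ z ∈ q, z < sp.N) → sp.L0 ≤ q.length →
    q.length ≤ sp.L1 → q.IsChain A → q.head? = some sp.x → q.getLast? = some sp.y → False
  forbC : sp.cyc = true → ∀ q : List ℕ, q.Nodup → (∀ z ∈ q, z < sp.N) → sp.L0 ≤ q.length →
    q.length ≤ sp.L1 → q.IsChain A → ∀ h t, q.head? = some h → q.getLast? = some t → A t h →
    False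
  /-- the vertices `≥ jl` are ordered by their first neighbour on the path -/
  firstNb : ∀ j, sp.jl ≤ j → j + 1 < sp.N → ∀ i, i < sp.l → A i (j + 1) → ∃ i', i' ≤ i ∧ A i' j

/-! ### the pair index -/

def tri (v : ℕ) : ℕ := v * (v - 1) / 2

theorem idx_eq (u v : ℕ) : idx u v = tri v + u := by
  show (v * (v - 1)) >>> 1 + u = v * (v - 1) / 2 + u
  rw [Nat.shiftRight_eq_div_pow]

theorem tri_succ (v : ℕ) : tri (v + 1) = tri v + v := by
  unfold tri
  cases v with
  | zero => rfl
  | succ n =>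
    have h : (n + 1 + 1) * (n + 1 + 1 - 1) = (n + 1) * (n + 1 - 1) + 2 * (n + 1) := by
      simp only [Nat.add_sub_cancel]
      ring
    rw [h, Nat.add_mul_div_left _ _ (by norm_num)]

theorem tri_mono {v w : ℕ} (h : v ≤ w) : tri v ≤ tri w := by
  induction w with
  | zero =>
    have : v = 0 := by omega
    rw [this]
  | succ n ih =>
    rcases Nat.le_succ_iff.1 h with h1 | h1
    · have := ih h1
      rw [tri_succ]
      omega
    · rw [h1]

theorem idx_lt {u v N : ℕ} (huv : u < v) (hv : v < N) : idx u v < idx 0 N := by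
  rw [idx_eq, idx_eq]
  have h1 : tri (v + 1) ≤ tri N := tri_mono hv
  rw [tri_succ] at h1
  omega

theorem idx_inj {u v u' v' : ℕ} (h : u < v) (h' : u' < v') (e : idx u v = idx u' v') :
    u = u' ∧ v = v' := by
  rw [idx_eq, idx_eq] at e
  rcases lt_trichotomy v v' with hv | hv | hv
  · have h1 : tri (v + 1) ≤ tri v' := tri_mono hv
    rw [tri_succ] at h1
    omega
  · subst hv
    exact ⟨by omega, rfl⟩
  · have h1 : tri (v' + 1) ≤ tri v := tri_mono hv
    rw [tri_succ] at h1
    omega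

/-- truth value of the variables -/
def tauOf (A : ℕ → ℕ → Prop) (k : ℕ) : Prop := ∃ u v, u < v ∧ idx u v = k ∧ A u v

theorem tauOf_idx {A : ℕ → ℕ → Prop} {u v : ℕ} (h : u < v) : tauOf A (idx u v) ↔ A u v := by
  constructor
  · rintro ⟨u', v', h', e, hA⟩
    obtain ⟨rfl, rfl⟩ := idx_inj h' h e
    exact hA
  · intro hA
    exact ⟨u, v, h, rfl, hA⟩

theorem tbit_eq {c b : ℕ} (h : tbit c b = true) : c.testBit b = true := by
  have h1 := congrArg (fun n => n.testBit 0) (beq_eq h)
  simp only [tb_land, tb_shr] at h1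
  simpa using h1

theorem band {a b : Bool} (h : Bool.and a b = true) : a = true ∧ b = true := by
  cases a <;> cases b <;> simp_all

theorem bor {a b : Bool} (h : Bool.or a b = true) : a = true ∨ b = true := by
  cases a <;> cases b <;> simp_all

theorem ble_le {a b : ℕ} (h : Nat.ble a b = true) : a ≤ b := Nat.le_of_ble_eq_true h

theorem ble_lt {a b : ℕ} (h : Nat.ble (Nat.add a 1) b = true) : a < b := Nat.le_of_ble_eq_true h

/-! ### soundness of the justifications -/

section
variable {sp : Spec} {A : ℕ → ℕ → Prop}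

theorem isE_sound (hA : Model sp A) {u v : ℕ} (h : isE sp u v = true) : A u v := by
  rcases bor h with h | h
  · obtain ⟨h1, h2⟩ := band h
    have e : v = u + 1 := beq_eq h1
    subst e
    exact hA.path u (ble_lt h2)
  · obtain ⟨h1, h2⟩ := band h
    obtain ⟨h2, h3⟩ := band h2
    have e : u = 0 := beq_eq h2
    have e2 : v + 1 = sp.l := beq_eq h3
    have e3 : v = sp.l - 1 := by omega
    rw [e, e3]
    exact hA.close h1

theorem posOK_sound (hA : Model sp A) (hW : idx 0 sp.N ≤ sp.W) {c u v : ℕ}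
    (h : posOK sp c u v = true) (huv : u < v) (hv : v < sp.N) (ha : A u v) :
    CSat (tauOf A) sp.W c := by
  rcases bor h with h | h
  · exact absurd ha (hA.indep u v (ble_le h) huv hv)
  · exact ⟨idx u v, lt_of_lt_of_le (idx_lt huv hv) hW, Or.inl ⟨tbit_eq h, (tauOf_idx huv).2 ha⟩⟩

theorem negOK_sound (hA : Model sp A) (hW : idx 0 sp.N ≤ sp.W) {c u v : ℕ}
    (h : negOK sp c u v = true) (huv : u < v) (hv : v < sp.N)
    (hc : ¬ CSat (tauOf A) sp.W c) : A u v := by
  rcases bor h with h | h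
  · exact isE_sound hA h
  · by_contra ha
    exact hc ⟨idx u v, lt_of_lt_of_le (idx_lt huv hv) hW,
      Or.inr ⟨tbit_eq h, fun ht => ha ((tauOf_idx huv).1 ht)⟩⟩

theorem edgeOK_sound (hA : Model sp A) (hW : idx 0 sp.N ≤ sp.W) {c u v : ℕ}
    (h : edgeOK sp c u v = true) (hu : u < sp.N) (hv : v < sp.N)
    (hc : ¬ CSat (tauOf A) sp.W c) : A u v := by
  unfold edgeOK at h
  cases hb : Nat.ble (Nat.add u 1) v with
  | true =>
    rw [hb] at h
    exact negOK_sound hA hW h (ble_lt hb) hv hc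
  | false =>
    rw [hb] at h
    obtain ⟨h1, h2⟩ := band h
    exact hA.symm _ _ (negOK_sound hA hW h2 (ble_lt h1) hu hc)

theorem chainOK_sound (hA : Model sp A) (hW : idx 0 sp.N ≤ sp.W) {c h0 : ℕ}
    (hc : ¬ CSat (tauOf A) sp.W c) (tl : List ℕ) : ∀ prev, chainOK sp c h0 tl prev = true →
    (∀ z ∈ prev :: tl, z < sp.N) →
    (prev :: tl).IsChain A ∧ ∃ last, (prev :: tl).getLast? = some last ∧ last < sp.N ∧
      endOK sp c h0 last = true := by
  induction tl with
  | nil =>
    intro prev h hN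
    exact ⟨List.isChain_singleton _, prev, rfl, hN prev (by simp), h⟩
  | cons v tl ih =>
    intro prev h hN
    obtain ⟨h1, h2⟩ := band h
    obtain ⟨h3, last, h4, h5, h6⟩ := ih v h2 (fun z hz => hN z (List.mem_cons_of_mem _ hz))
    refine ⟨List.IsChain.cons_cons (edgeOK_sound hA hW h1 (hN prev (by simp)) (hN v (by simp)) hc)
      h3, last, ?_, h5, h6⟩
    rw [List.getLast?_cons_cons]
    exact h4

theorem ndOK_sound {N : ℕ} (q : List ℕ) : ∀ m, ndOK N q m = true →
    q.Nodup ∧ ∀ z ∈ q, z < N ∧ m.testBit z = false := by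
  induction q with
  | nil =>
    intro m _
    exact ⟨List.nodup_nil, fun z hz => absurd hz (by simp)⟩
  | cons x tl ih =>
    intro m h
    obtain ⟨h1, h2⟩ := band h
    obtain ⟨h1, h3⟩ := band h1
    obtain ⟨h4, h5⟩ := ih _ h2
    have hx : m.testBit x = false := by
      have h6 := congrArg (fun n => n.testBit 0) (beq_eq h3)
      simp only [tb_land, tb_shr] at h6
      simpa using h6
    refine ⟨List.nodup_cons.2 ⟨?_, h4⟩, ?_⟩
    · intro hmem
      have := (h5 x hmem).2
      rw [tb_lor, tb_one] at this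
      simp at this
    · intro z hz
      rcases List.mem_cons.1 hz with rfl | hz
      · exact ⟨ble_lt h1, hx⟩
      · refine ⟨(h5 z hz).1, ?_⟩
        have := (h5 z hz).2
        rw [tb_lor, Bool.or_eq_false_iff] at this
        exact this.1

theorem unpack_length (n : ℕ) : ∀ w, (unpack n w).length = n := by
  induction n with
  | zero => intro w; rfl
  | succ n ih =>
    intro w
    show (List.cons (Nat.land w 31) (unpack n (Nat.shiftRight w 5))).length = n + 1
    rw [List.length_cons, ih]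

theorem seqOK_sound (hA : Model sp A) (hW : idx 0 sp.N ≤ sp.W) {c t : ℕ} {q : List ℕ}
    (hq : q.length = t) (h : seqOK sp c t q = true) : CSat (tauOf A) sp.W c := by
  by_contra hc
  obtain ⟨h1, h2⟩ := band h
  obtain ⟨hL0, hL1⟩ := band h1
  obtain ⟨h2, h3⟩ := band h2
  obtain ⟨hnd, hN⟩ := ndOK_sound q 0 h2
  cases q with
  | nil => exact absurd h3 (by simp)
  | cons h0 tl =>
    have h3' : chainOK sp c h0 tl h0 = true := h3
    obtain ⟨hch, last, hlast, hlN, hend⟩ :=
      chainOK_sound hA hW hc tl h0 h3' (fun z hz => (hN z hz).1)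
    unfold endOK at hend
    cases hcy : sp.cyc with
    | true =>
      rw [hcy] at hend
      exact hA.forbC hcy (h0 :: tl) hnd (fun z hz => (hN z hz).1) (by rw [hq]; exact ble_le hL0)
        (by rw [hq]; exact ble_le hL1) hch h0 last rfl hlast
        (edgeOK_sound hA hW hend hlN ((hN h0 (by simp)).1) hc)
    | false =>
      rw [hcy] at hend
      obtain ⟨e1, e2⟩ := band hend
      have e1' : h0 = sp.x := beq_eq e1
      have e2' : last = sp.y := beq_eq e2
      exact hA.forbP hcy (h0 :: tl) hnd (fun z hz => (hN z hz).1) (by rw [hq]; exact ble_le hL0)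
        (by rw [hq]; exact ble_le hL1) hch (by rw [← e1']; rfl) (by rw [← e2']; exact hlast)

theorem incOK_sound {N : ℕ} (s : List ℕ) : ∀ lo, incOK N s lo = true →
    s.Pairwise (· < ·) ∧ ∀ z ∈ s, lo ≤ z ∧ z < N := by
  induction s with
  | nil =>
    intro lo _
    exact ⟨List.Pairwise.nil, fun z hz => absurd hz (by simp)⟩
  | cons x tl ih =>
    intro lo h
    obtain ⟨h1, h2⟩ := band h
    obtain ⟨h1, h3⟩ := band h1
    obtain ⟨h4, h5⟩ := ih _ h2
    refine ⟨List.pairwise_cons.2 ⟨fun z hz => (h5 z hz).1, h4⟩, ?_⟩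
    intro z hz
    rcases List.mem_cons.1 hz with rfl | hz
    · exact ⟨ble_le h1, ble_lt h3⟩
    · have := (h5 z hz).1
      have h6 : x + 1 ≤ z := this
      exact ⟨by have := ble_le h1; omega, (h5 z hz).2⟩

theorem rowOK_sound {c u : ℕ} (tl : List ℕ) (h : rowOK sp c u tl = true) :
    ∀ v ∈ tl, posOK sp c u v = true := by
  induction tl with
  | nil => intro v hv; exact absurd hv (by simp)
  | cons x tl ih =>
    obtain ⟨h1, h2⟩ := band h
    intro v hv
    rcases List.mem_cons.1 hv with rfl | hv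
    · exact h1
    · exact ih h2 v hv

theorem pairsOK_sound {c : ℕ} (s : List ℕ) (h : pairsOK sp c s = true)
    (hs : s.Pairwise (· < ·)) : ∀ u ∈ s, ∀ v ∈ s, u < v → posOK sp c u v = true := by
  induction s with
  | nil => intro u hu; exact absurd hu (by simp)
  | cons x tl ih =>
    obtain ⟨h1, h2⟩ := band h
    obtain ⟨hs1, hs2⟩ := List.pairwise_cons.1 hs
    intro u hu v hv huv
    rcases List.mem_cons.1 hu with hu2 | hu2
    · rcases List.mem_cons.1 hv with hv2 | hv2
      · omega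
      · rw [hu2]
        exact rowOK_sound tl h1 v hv2
    · rcases List.mem_cons.1 hv with hv2 | hv2
      · have := hs1 u hu2
        omega
      · exact ih h2 hs2 u hu2 v hv2 huv

theorem alphaOK_sound (hA : Model sp A) (hW : idx 0 sp.N ≤ sp.W) {c : ℕ} {s : List ℕ}
    (hs : s.length = sp.a + 1) (h : alphaOK sp c s = true) : CSat (tauOf A) sp.W c := by
  obtain ⟨h1, h2⟩ := band h
  obtain ⟨h3, h4⟩ := incOK_sound s 0 h1
  obtain ⟨u, hu, v, hv, huv, ha⟩ := hA.alpha s h3 hs (fun z hz => (h4 z hz).2)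
  exact posOK_sound hA hW (pairsOK_sound s h2 h3 u hu v hv huv) huv (h4 v hv).2 ha

theorem prefOK_sound {c j : ℕ} (n : ℕ) (h : prefOK c j n = true) :
    ∀ i, i < n → c.testBit (64 + idx i j) = true := by
  induction n with
  | zero => intro i hi; exact absurd hi (Nat.not_lt_zero i)
  | succ n ih =>
    obtain ⟨h1, h2⟩ := band h
    intro i hi
    rcases Nat.lt_succ_iff_lt_or_eq.1 hi with hi | rfl
    · exact ih h2 i hi
    · exact tbit_eq h1

theorem firstOK_sound (hA : Model sp A) (hW : idx 0 sp.N ≤ sp.W) {c i j : ℕ}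
    (h : firstOK sp c i j = true) : CSat (tauOf A) sp.W c := by
  obtain ⟨h1, h2⟩ := band h
  obtain ⟨hl, h1⟩ := band h1
  obtain ⟨hj, h1⟩ := band h1
  obtain ⟨hjN, hi⟩ := band h1
  obtain ⟨hneg, hpos⟩ := band h2
  have hl' := ble_le hl
  have hj' := ble_le hj
  have hjN' : j + 1 < sp.N := ble_lt hjN
  have hi' : i < sp.l := ble_lt hi
  by_cases ha : A i (j + 1)
  · obtain ⟨i', hi2, ha2⟩ := hA.firstNb j hj' hjN' i hi' ha
    have hlt : i' < j := by omega
    exact ⟨idx i' j, lt_of_lt_of_le (idx_lt hlt (by omega)) hW,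
      Or.inl ⟨prefOK_sound _ hpos i' (Nat.lt_succ_of_le hi2), (tauOf_idx hlt).2 ha2⟩⟩
  · have hlt : i < j + 1 := by omega
    exact ⟨idx i (j + 1), lt_of_lt_of_le (idx_lt hlt hjN') hW,
      Or.inr ⟨tbit_eq hneg, fun ht => ha ((tauOf_idx hlt).1 ht)⟩⟩

theorem inOK_sound (hA : Model sp A) (hW : idx 0 sp.N ≤ sp.W) {c w : ℕ}
    (h : inOK sp c w = true) : CSat (tauOf A) sp.W c := by
  unfold inOK at h
  generalize Nat.land w 3 = t at h
  rcases t with _ | _ | _ | t
  · exact alphaOK_sound hA hW (unpack_length _ _) h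
  · exact seqOK_sound hA hW (unpack_length _ _) h
  · exact firstOK_sound hA hW h
  · exact absurd h (by simp)

theorem runIn_sound (hA : Model sp A) (hW : idx 0 sp.N ≤ sp.W) {cl : ℕ → ℕ} {iEnd : ℕ}
    (ws : List ℕ) : ∀ i, runIn sp cl iEnd ws i = true →
    (∀ j, j < i → CSat (tauOf A) sp.W (cl j)) →
    ∀ j, j < iEnd → CSat (tauOf A) sp.W (cl j) := by
  induction ws with
  | nil =>
    intro i h h0
    have e : i = iEnd := beq_eq h
    rw [← e]
    exact h0
  | cons w ws ih =>
    intro i h h0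
    obtain ⟨h1, h2⟩ := band h
    refine ih (i + 1) h2 ?_
    intro j hj
    rcases Nat.lt_succ_iff_lt_or_eq.1 hj with hj | rfl
    · exact h0 j hj
    · exact inOK_sound hA hW h1

theorem checkIn_sound (hA : Model sp A) {cl : ℕ → ℕ} {i0 i1 : ℕ} {ws : List ℕ}
    (h : checkIn sp cl i0 i1 ws = true)
    (h0 : ∀ j, j < i0 → CSat (tauOf A) sp.W (cl j)) :
    ∀ j, j < i1 → CSat (tauOf A) sp.W (cl j) := by
  obtain ⟨h1, h2⟩ := band h
  exact runIn_sound hA (ble_le h1) ws i0 h2 h0

end

end Vale.Agent.P048.Sat
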