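/-!
# P048: the computational definitions of the kernel clause checkers

This file has no imports, so that the generated certificate modules load quickly.
-/

namespace Vale.Agent.P048.Sat

/-- glue pieces of `pb` bits -/
noncomputable def join (pb : Nat) : List Nat → Nat :=
  List.rec 0 (fun a _ r => Nat.lor a (Nat.shiftLeft r pb))

noncomputable def tok3 (ih : Nat → List Nat → Nat → Nat → Bool) (cl : Nat → Nat) (W cur : Nat)
    (rest : List Nat) (i F k r : Nat) : Bool :=
  Bool.rec
    (Bool.rec false
      (ih (Nat.shiftRight cur 30) rest i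
        (Nat.lor F (Nat.shiftLeft 18446744073709551616
          (Bool.rec (Nat.sub k W) (Nat.add k W) (Nat.ble (Nat.add k 1) W)))))
      (Nat.beq r (Nat.shiftLeft 1 k)))
    (ih (Nat.shiftRight cur 30) rest (Nat.add i 1) (cl (Nat.add i 1)))
    (Nat.beq r 0)

noncomputable def tok (ih : Nat → List Nat → Nat → Nat → Bool) (cl : Nat → Nat) (W cur : Nat)
    (rest : List Nat) (i F : Nat) : Bool :=
  Bool.rec false
    (tok3 ih cl W cur rest i F (Nat.land (Nat.shiftRight cur 20) 1023)
      (Nat.shiftRight (Nat.xor (cl (Nat.land cur 1048575))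
        (Nat.land (cl (Nat.land cur 1048575)) F)) 64))
    (Nat.ble (Nat.add (Nat.land cur 1048575) 1) i)

/-- the machine: `cur` is the current word of hint tokens (30 bits each: 20 bits clause number,
10 bits literal that becomes true), `i` the clause being proved, `F` the falsified literals -/
noncomputable def run (cl : Nat → Nat) (W iEnd fuel : Nat) : Nat → List Nat → Nat → Nat → Bool :=
  Nat.rec (fun _ _ _ _ => false)
    (fun _ ih cur rest i F =>
      Nat.rec (List.rec (Nat.beq i iEnd) (fun p ps _ => ih p ps i F) rest)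
        (fun _ _ => tok ih cl W cur rest i F) cur) fuel

/-- check the clauses `i0 ≤ i < i1` -/
noncomputable def checkRange (cl : Nat → Nat) (W i0 i1 fuel : Nat) (pieces : List Nat) : Bool :=
  run cl W i1 fuel 0 pieces i0 (cl i0)

end Vale.Agent.P048.Sat

namespace Vale.Agent.P048.Sat

/-- description of a finite graph problem -/
structure Spec where
  /-- number of vertices -/
  N : Nat
  /-- bound for the independence number -/
  a : Nat
  /-- `0, 1, …, l - 1` is a path -/
  l : Nat
  /-- `0` and `l - 1` are adjacent -/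
  cf : Bool
  /-- the vertices `≥ jl` are pairwise non adjacent -/
  jl : Nat
  /-- forbidden: cycles (`true`) or paths from `x` to `y` (`false`) … -/
  cyc : Bool
  /-- … with at least `L0` … -/
  L0 : Nat
  /-- … and at most `L1` vertices -/
  L1 : Nat
  x : Nat
  y : Nat
  /-- number of variables -/
  W : Nat

noncomputable def idx (u v : Nat) : Nat := Nat.add (Nat.shiftRight (Nat.mul v (Nat.sub v 1)) 1) u

noncomputable def tbit (c b : Nat) : Bool := Nat.beq (Nat.land (Nat.shiftRight c b) 1) 1

noncomputable def isE (sp : Spec) (u v : Nat) : Bool :=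
  Bool.or (Bool.and (Nat.beq v (Nat.add u 1)) (Nat.ble (Nat.add v 1) sp.l))
    (Bool.and sp.cf (Bool.and (Nat.beq u 0) (Nat.beq (Nat.add v 1) sp.l)))

noncomputable def posOK (sp : Spec) (c u v : Nat) : Bool :=
  Bool.or (Nat.ble sp.jl u) (tbit c (Nat.add 64 (idx u v)))

noncomputable def rowOK (sp : Spec) (c u : Nat) : List Nat → Bool :=
  List.rec true (fun v _ ih => Bool.and (posOK sp c u v) ih)

noncomputable def pairsOK (sp : Spec) (c : Nat) : List Nat → Bool :=
  List.rec true (fun u tl ih => Bool.and (rowOK sp c u tl) ih)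

noncomputable def incOK (N : Nat) : List Nat → Nat → Bool :=
  List.rec (fun _ => true) (fun x _ ih lo =>
    Bool.and (Bool.and (Nat.ble lo x) (Nat.ble (Nat.add x 1) N)) (ih (Nat.add x 1)))

noncomputable def alphaOK (sp : Spec) (c : Nat) (s : List Nat) : Bool :=
  Bool.and (incOK sp.N s 0) (pairsOK sp c s)

noncomputable def negOK (sp : Spec) (c u v : Nat) : Bool :=
  Bool.or (isE sp u v) (tbit c (Nat.add (Nat.add 64 sp.W) (idx u v)))

noncomputable def edgeOK (sp : Spec) (c u v : Nat) : Bool :=
  Bool.rec (Bool.and (Nat.ble (Nat.add v 1) u) (negOK sp c v u)) (negOK sp c u v)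
    (Nat.ble (Nat.add u 1) v)

noncomputable def endOK (sp : Spec) (c h0 last : Nat) : Bool :=
  Bool.rec (Bool.and (Nat.beq h0 sp.x) (Nat.beq last sp.y)) (edgeOK sp c last h0) sp.cyc

noncomputable def chainOK (sp : Spec) (c h0 : Nat) : List Nat → Nat → Bool :=
  List.rec (fun prev => endOK sp c h0 prev)
    (fun v _ ih prev => Bool.and (edgeOK sp c prev v) (ih v))

noncomputable def ndOK (N : Nat) : List Nat → Nat → Bool :=
  List.rec (fun _ => true) (fun x _ ih m =>
    Bool.and (Bool.and (Nat.ble (Nat.add x 1) N) (Nat.beq (Nat.land (Nat.shiftRight m x) 1) 0))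
      (ih (Nat.lor m (Nat.shiftLeft 1 x))))

noncomputable def seqOK (sp : Spec) (c t : Nat) (q : List Nat) : Bool :=
  Bool.and (Bool.and (Nat.ble sp.L0 t) (Nat.ble t sp.L1))
    (Bool.and (ndOK sp.N q 0) (List.rec false (fun h tl _ => chainOK sp c h tl h) q))

noncomputable def unpack (n : Nat) : Nat → List Nat :=
  Nat.rec (fun _ => []) (fun _ ih w => List.cons (Nat.land w 31) (ih (Nat.shiftRight w 5))) n

noncomputable def prefOK (c j n : Nat) : Bool :=
  Nat.rec true (fun i ih => Bool.and (tbit c (Nat.add 64 (idx i j))) ih) n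

/-- first neighbour clause: `¬ (i, j+1) ∨ (0, j) ∨ … ∨ (i, j)` -/
noncomputable def firstOK (sp : Spec) (c i j : Nat) : Bool :=
  Bool.and (Bool.and (Nat.ble sp.l sp.jl) (Bool.and (Nat.ble sp.jl j)
      (Bool.and (Nat.ble (Nat.add (Nat.add j 1) 1) sp.N) (Nat.ble (Nat.add i 1) sp.l))))
    (Bool.and (tbit c (Nat.add (Nat.add 64 sp.W) (idx i (Nat.add j 1))))
      (prefOK c j (Nat.add i 1)))

/-- justification word: 2 bits kind, 5 bits number of vertices, then 5 bits per vertex -/
noncomputable def inOK (sp : Spec) (c w : Nat) : Bool :=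
  Nat.rec (alphaOK sp c (unpack (Nat.add sp.a 1) (Nat.shiftRight w 7)))
    (fun t _ => Nat.rec
      (seqOK sp c (Nat.land (Nat.shiftRight w 2) 31)
        (unpack (Nat.land (Nat.shiftRight w 2) 31) (Nat.shiftRight w 7)))
      (fun t _ => Nat.rec
        (firstOK sp c (Nat.land (Nat.shiftRight w 2) 31) (Nat.land (Nat.shiftRight w 7) 31))
        (fun _ _ => false) t) t) (Nat.land w 3)

noncomputable def runIn (sp : Spec) (cl : Nat → Nat) (iEnd : Nat) : List Nat → Nat → Bool :=
  List.rec (fun i => Nat.beq i iEnd)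
    (fun w _ ih i => Bool.and (inOK sp (cl i) w) (ih (Nat.add i 1)))

/-- the clauses `i0 ≤ i < i1` are justified by the words `ws` -/
noncomputable def checkIn (sp : Spec) (cl : Nat → Nat) (i0 i1 : Nat) (ws : List Nat) : Bool :=
  Bool.and (Nat.ble (idx 0 sp.N) sp.W) (runIn sp cl i1 ws i0)

end Vale.Agent.P048.Sat

namespace Vale.Agent.P048.Sat.Fast

open Vale.Agent.P048.Sat

/-- `cl id`, written so that the kernel sees the argument as a numeral (and remembers the value) -/
noncomputable def fetch (cl : Nat → Nat) (id : Nat) : Nat :=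
  Nat.rec (cl 0) (fun n _ => cl (Nat.succ n)) id

noncomputable def tokB (ih : Nat → List Nat → Nat → Nat → Bool) (cl : Nat → Nat) (W cur : Nat)
    (rest : List Nat) (j F k r : Nat) : Bool :=
  Nat.rec (ih (Nat.shiftRight cur 34) rest (Nat.add j 1) (cl (Nat.add j 2)))
    (fun _ _ => Bool.rec false
      (ih (Nat.shiftRight cur 34) rest j
        (Nat.lor F (Nat.shiftLeft 18446744073709551616 (Nat.xor k W))))
      (Nat.beq r (Nat.shiftLeft 1 k))) r

noncomputable def tokA (ih : Nat → List Nat → Nat → Nat → Bool) (cl : Nat → Nat) (W cur : Nat)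
    (rest : List Nat) (j F w : Nat) : Bool :=
  tokB ih cl W cur rest j F (Nat.shiftRight w 24)
    (Nat.shiftRight (Nat.xor (fetch cl (Nat.sub j (Nat.land w 16777215)))
      (Nat.land (fetch cl (Nat.sub j (Nat.land w 16777215))) F)) 64)

/-- the machine: `cur` is the current word of hint tokens (34 bits each: one plus [24 bits distance
of the hint clause below `j`, 10 bits literal that becomes true]); the clauses `≤ j` are known,
clause `j + 1` is being proved, `F` are the falsified literals -/
noncomputable def run (cl : Nat → Nat) (W jEnd fuel : Nat) : Nat → List Nat → Nat → Nat → Bool :=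
  Nat.rec (fun _ _ _ _ => false)
    (fun _ ih cur rest j F =>
      Nat.rec (List.rec (Nat.beq j jEnd) (fun p ps _ => ih p ps j F) rest)
        (fun w _ => tokA ih cl W cur rest j F w) (Nat.land cur 17179869183)) fuel

/-- from the clauses `≤ j0` to the clauses `≤ j1` -/
noncomputable def checkRange (cl : Nat → Nat) (W j0 j1 fuel : Nat) (pieces : List Nat) : Bool :=
  run cl W j1 fuel 0 pieces j0 (cl (Nat.add j0 1))

end Vale.Agent.P048.Sat.Fast

namespace Vale.Agent.P048.Sat.Fast

open Vale.Agent.P048.Sat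

noncomputable def negOK (sp : Spec) (c u v : Nat) : Bool :=
  Bool.or (isE sp u v) (tbit c (Nat.add 64 (Nat.xor (idx u v) sp.W)))

noncomputable def edgeOK (sp : Spec) (c u v : Nat) : Bool :=
  Bool.rec (Bool.and (Nat.ble (Nat.add v 1) u) (negOK sp c v u)) (negOK sp c u v)
    (Nat.ble (Nat.add u 1) v)

noncomputable def endOK (sp : Spec) (c h0 last : Nat) : Bool :=
  Bool.rec (Bool.and (Nat.beq h0 sp.x) (Nat.beq last sp.y)) (edgeOK sp c last h0) sp.cyc

noncomputable def chainOK (sp : Spec) (c h0 : Nat) : List Nat → Nat → Bool :=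
  List.rec (fun prev => endOK sp c h0 prev)
    (fun v _ ih prev => Bool.and (edgeOK sp c prev v) (ih v))

noncomputable def seqOK (sp : Spec) (c t : Nat) (q : List Nat) : Bool :=
  Bool.and (Bool.and (Nat.ble sp.L0 t) (Nat.ble t sp.L1))
    (Bool.and (ndOK sp.N q 0) (List.rec false (fun h tl _ => chainOK sp c h tl h) q))

/-- first neighbour clause: `¬ (i, j+1) ∨ (0, j) ∨ … ∨ (i, j)` -/
noncomputable def firstOK (sp : Spec) (c i j : Nat) : Bool :=
  Bool.and (Bool.and (Nat.ble sp.l sp.jl) (Bool.and (Nat.ble sp.jl j)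
      (Bool.and (Nat.ble (Nat.add (Nat.add j 1) 1) sp.N) (Nat.ble (Nat.add i 1) sp.l))))
    (Bool.and (tbit c (Nat.add 64 (Nat.xor (idx i (Nat.add j 1)) sp.W)))
      (prefOK c j (Nat.add i 1)))

/-- justification word: 2 bits kind, 5 bits number of vertices, then 5 bits per vertex -/
noncomputable def inOK (sp : Spec) (c w : Nat) : Bool :=
  Nat.rec (alphaOK sp c (unpack (Nat.add sp.a 1) (Nat.shiftRight w 7)))
    (fun t _ => Nat.rec
      (seqOK sp c (Nat.land (Nat.shiftRight w 2) 31)
        (unpack (Nat.land (Nat.shiftRight w 2) 31) (Nat.shiftRight w 7)))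
      (fun t _ => Nat.rec
        (firstOK sp c (Nat.land (Nat.shiftRight w 2) 31) (Nat.land (Nat.shiftRight w 7) 31))
        (fun _ _ => false) t) t) (Nat.land w 3)

noncomputable def runIn (sp : Spec) (cl : Nat → Nat) (iEnd : Nat) : List Nat → Nat → Bool :=
  List.rec (fun i => Nat.beq i iEnd)
    (fun w _ ih i => Bool.and (inOK sp (cl i) w) (ih (Nat.add i 1)))

/-- the clauses `i0 ≤ i < i1` are justified by the words `ws` -/
noncomputable def checkIn (sp : Spec) (cl : Nat → Nat) (i0 i1 : Nat) (ws : List Nat) : Bool :=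
  Bool.and (Nat.ble (idx 0 sp.N) sp.W) (runIn sp cl i1 ws i0)

end Vale.Agent.P048.Sat.Fast

namespace Vale.Agent.P048.Sat.Turbo

open Vale.Agent.P048.Sat

/-- `cl id`, written so that the kernel sees the argument as a numeral (and remembers the value) -/
noncomputable def fetch (cl : Nat → Nat) (id : Nat) : Nat :=
  Nat.rec (cl 0) (fun n _ => cl (Nat.succ n)) id

noncomputable def tokB (ih : Nat → List Nat → Nat → Nat → Bool) (cl : Nat → Nat) (cur : Nat)
    (rest : List Nat) (j F k r : Nat) : Bool :=
  Nat.rec (ih (Nat.shiftRight cur 34) rest (Nat.add j 1) (cl (Nat.add j 2)))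
    (fun _ _ => Bool.rec false
      (ih (Nat.shiftRight cur 34) rest j
        (Nat.lor F (Nat.shiftLeft 18446744073709551616 (Nat.xor k 1))))
      (Nat.beq r (Nat.shiftLeft 1 k))) r

noncomputable def tokA (ih : Nat → List Nat → Nat → Nat → Bool) (cl : Nat → Nat) (cur : Nat)
    (rest : List Nat) (j F w : Nat) : Bool :=
  tokB ih cl cur rest j F (Nat.shiftRight w 24)
    (Nat.shiftRight (Nat.xor (fetch cl (Nat.sub j (Nat.land w 16777215)))
      (Nat.land (fetch cl (Nat.sub j (Nat.land w 16777215))) F)) 64)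

/-- the machine: `cur` is the current word of hint tokens (34 bits each: one plus [24 bits distance
of the hint clause below `j`, 10 bits literal that becomes true]); the clauses `≤ j` are known,
clause `j + 1` is being proved, `F` are the falsified literals -/
noncomputable def run (cl : Nat → Nat) (jEnd fuel : Nat) : Nat → List Nat → Nat → Nat → Bool :=
  Nat.rec (fun _ _ _ _ => false)
    (fun _ ih cur rest j F =>
      Nat.rec (List.rec (Nat.beq j jEnd) (fun p ps _ => ih p ps j F) rest)
        (fun w _ => tokA ih cl cur rest j F w) (Nat.land cur 17179869183)) fuel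

/-- from the clauses `≤ j0` to the clauses `≤ j1` -/
noncomputable def checkRange (cl : Nat → Nat) (j0 j1 fuel : Nat) (pieces : List Nat) : Bool :=
  run cl j1 fuel 0 pieces j0 (cl (Nat.add j0 1))

end Vale.Agent.P048.Sat.Turbo

namespace Vale.Agent.P048.Sat.Turbo

open Vale.Agent.P048.Sat

noncomputable def ax (sp : Spec) (j i : Nat) : Nat :=
  Nat.add (Nat.add (idx 0 sp.N) (Nat.mul (Nat.sub j sp.jl) sp.l)) i

noncomputable def pp (x : Nat) : Nat := Nat.add 64 (Nat.mul 2 x)

noncomputable def pn (x : Nat) : Nat := Nat.add 64 (Nat.xor (Nat.mul 2 x) 1)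

noncomputable def posOK (sp : Spec) (c u v : Nat) : Bool :=
  Bool.or (Nat.ble sp.jl u) (tbit c (pp (idx u v)))

noncomputable def rowOK (sp : Spec) (c u : Nat) : List Nat → Bool :=
  List.rec true (fun v _ ih => Bool.and (posOK sp c u v) ih)

noncomputable def pairsOK (sp : Spec) (c : Nat) : List Nat → Bool :=
  List.rec true (fun u tl ih => Bool.and (rowOK sp c u tl) ih)

noncomputable def alphaOK (sp : Spec) (c : Nat) (s : List Nat) : Bool :=
  Bool.and (incOK sp.N s 0) (pairsOK sp c s)

noncomputable def negOK (sp : Spec) (c u v : Nat) : Bool :=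
  Bool.or (isE sp u v) (tbit c (pn (idx u v)))

noncomputable def edgeOK (sp : Spec) (c u v : Nat) : Bool :=
  Bool.rec (Bool.and (Nat.ble (Nat.add v 1) u) (negOK sp c v u)) (negOK sp c u v)
    (Nat.ble (Nat.add u 1) v)

noncomputable def endOK (sp : Spec) (c h0 last : Nat) : Bool :=
  Bool.rec (Bool.and (Nat.beq h0 sp.x) (Nat.beq last sp.y)) (edgeOK sp c last h0) sp.cyc

noncomputable def chainOK (sp : Spec) (c h0 : Nat) : List Nat → Nat → Bool :=
  List.rec (fun prev => endOK sp c h0 prev)
    (fun v _ ih prev => Bool.and (edgeOK sp c prev v) (ih v))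

noncomputable def seqOK (sp : Spec) (c t : Nat) (q : List Nat) : Bool :=
  Bool.and (Bool.and (Nat.ble sp.L0 t) (Nat.ble t sp.L1))
    (Bool.and (ndOK sp.N q 0) (List.rec false (fun h tl _ => chainOK sp c h tl h) q))

noncomputable def prefOK (c j n : Nat) : Bool :=
  Nat.rec true (fun i ih => Bool.and (tbit c (pp (idx i j))) ih) n

/-- side conditions for the rows and columns -/
noncomputable def rcOK (sp : Spec) (i j : Nat) : Bool :=
  Bool.and (Nat.ble sp.l sp.jl) (Bool.and (Nat.ble sp.jl j)
      (Bool.and (Nat.ble (Nat.add (Nat.add j 1) 1) sp.N) (Nat.ble (Nat.add i 1) sp.l)))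

/-- first neighbour clause: `¬ (i, j+1) ∨ (0, j) ∨ … ∨ (i, j)` -/
noncomputable def firstOK (sp : Spec) (c i j : Nat) : Bool :=
  Bool.and (rcOK sp i j)
    (Bool.and (tbit c (pn (idx i (Nat.add j 1)))) (prefOK c j (Nat.add i 1)))

/-- the literal `¬ e i` is present (or `i = 0`) -/
noncomputable def neOK (sp : Spec) (c i j : Nat) : Bool :=
  Bool.or (Nat.beq i 0) (tbit c (pn (ax sp j i)))

/-- lex clauses: kind 0: `¬ e i ∨ x i ∨ ¬ y i`; kind 1: `¬ e i ∨ ¬ y i ∨ e (i+1)`;
kind 2: `¬ e i ∨ x i ∨ e (i+1)` where `x i = (i, j)`, `y i = (i, j+1)` -/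
noncomputable def lexOK (sp : Spec) (c i j kind : Nat) : Bool :=
  Bool.and (Bool.and (rcOK sp i j) (neOK sp c i j))
    (Nat.rec (Bool.and (tbit c (pp (idx i j))) (tbit c (pn (idx i (Nat.add j 1)))))
      (fun t _ => Bool.and (Bool.and (Nat.ble (Nat.add (Nat.add i 1) 1) sp.l)
          (tbit c (pp (ax sp j (Nat.add i 1)))))
        (Nat.rec (tbit c (pn (idx i (Nat.add j 1)))) (fun _ _ => tbit c (pp (idx i j))) t)) kind)

noncomputable def prefY (c j n : Nat) : Bool :=
  Nat.rec true (fun t ih => Bool.and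
    (Bool.or (tbit c (pp (idx t j))) (tbit c (pn (idx t (Nat.add j 1))))) ih) n

/-- lex clause without auxiliary variables: `¬ (i, j+1) ∨ (i, j)` and for every `t < i` one of
`(t, j)`, `¬ (t, j+1)` -/
noncomputable def lexNbOK (sp : Spec) (c i j : Nat) : Bool :=
  Bool.and (rcOK sp i j)
    (Bool.and (Bool.and (tbit c (pn (idx i (Nat.add j 1)))) (tbit c (pp (idx i j))))
      (prefY c j i))

/-- justification word: 2 bits kind, 5 bits number of vertices, then 5 bits per vertex -/
noncomputable def inOK (sp : Spec) (lx : Bool) (c w : Nat) : Bool :=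
  Nat.rec (alphaOK sp c (unpack (Nat.add sp.a 1) (Nat.shiftRight w 7)))
    (fun t _ => Nat.rec
      (seqOK sp c (Nat.land (Nat.shiftRight w 2) 31)
        (unpack (Nat.land (Nat.shiftRight w 2) 31) (Nat.shiftRight w 7)))
      (fun t _ => Nat.rec
        (firstOK sp c (Nat.land (Nat.shiftRight w 2) 31) (Nat.land (Nat.shiftRight w 7) 31))
        (fun _ _ => Bool.and lx (Nat.rec
          (lexNbOK sp c (Nat.land (Nat.shiftRight w 2) 31) (Nat.land (Nat.shiftRight w 7) 31))
          (fun k _ => lexOK sp c (Nat.land (Nat.shiftRight w 2) 31)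
            (Nat.land (Nat.shiftRight w 7) 31) k) (Nat.shiftRight w 12))) t) t) (Nat.land w 3)

noncomputable def runIn (sp : Spec) (lx : Bool) (cl : Nat → Nat) (iEnd : Nat) : List Nat → Nat → Bool :=
  List.rec (fun i => Nat.beq i iEnd)
    (fun w _ ih i => Bool.and (inOK sp lx (cl i) w) (ih (Nat.add i 1)))

/-- the clauses `i0 ≤ i < i1` are justified by the words `ws` -/
noncomputable def checkIn (sp : Spec) (lx : Bool) (cl : Nat → Nat) (i0 i1 : Nat) (ws : List Nat) :
    Bool :=
  runIn sp lx cl i1 ws i0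

end Vale.Agent.P048.Sat.Turbo
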