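import Mathlib
import Vale.Agent.P048.Sat.Base

/-!
# P048: a small clause-proof checker that runs inside the kernel

Clauses are natural numbers: bit `64 + v` is the positive literal of the variable `v < W`,
bit `64 + W + v` the negative one.  Bits below 64 carry no meaning.
-/

namespace Vale.Agent.P048.Sat

/-- the clause `c` is true under `τ` -/
def CSat (τ : ℕ → Prop) (W c : ℕ) : Prop :=
  ∃ v, v < W ∧ ((c.testBit (64 + v) = true ∧ τ v) ∨ (c.testBit (64 + W + v) = true ∧ ¬ τ v))

/-- all literals of `F` are false under `τ` -/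
def AllFalse (τ : ℕ → Prop) (W F : ℕ) : Prop :=
  ∀ v, v < W → (F.testBit (64 + v) = true → ¬ τ v) ∧ (F.testBit (64 + W + v) = true → τ v)

theorem tb_land (a b i : ℕ) : (Nat.land a b).testBit i = (a.testBit i && b.testBit i) :=
  Nat.testBit_and a b i

theorem tb_lor (a b i : ℕ) : (Nat.lor a b).testBit i = (a.testBit i || b.testBit i) :=
  Nat.testBit_or a b i

theorem tb_xor (a b i : ℕ) : (Nat.xor a b).testBit i = (a.testBit i ^^ b.testBit i) :=
  Nat.testBit_xor a b i

theorem tb_shl (a s i : ℕ) :
    (Nat.shiftLeft a s).testBit i = (decide (s ≤ i) && a.testBit (i - s)) :=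
  Nat.testBit_shiftLeft a

theorem tb_shr (a s i : ℕ) : (Nat.shiftRight a s).testBit i = a.testBit (s + i) :=
  Nat.testBit_shiftRight a

theorem beq_eq {a b : ℕ} (h : Nat.beq a b = true) : a = b := Nat.eq_of_beq_eq_true h

theorem of_brec {k : Bool} {b : Bool}
    (h : @Bool.rec (fun _ => Bool) false k b = true) : b = true ∧ k = true := by
  cases b
  · exact absurd h (by simp)
  · exact ⟨rfl, h⟩

theorem tb_bit (x b : ℕ) :
    (Nat.shiftLeft 18446744073709551616 x).testBit b = decide (b = 64 + x) := by
  rw [tb_shl]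
  have h64 : (18446744073709551616 : ℕ) = 2 ^ 64 := by norm_num
  rw [h64, Nat.testBit_two_pow]
  by_cases h : x ≤ b
  · simp only [h, decide_true, Bool.true_and, decide_eq_decide]
    omega
  · simp only [h, decide_false, Bool.false_and]
    symm
    rw [decide_eq_false_iff_not]
    omega

theorem tb_one (k b : ℕ) : (Nat.shiftLeft 1 k).testBit b = decide (b = k) := by
  rw [tb_shl]
  have h1 : (1 : ℕ) = 2 ^ 0 := by norm_num
  rw [h1, Nat.testBit_two_pow]
  by_cases h : k ≤ b
  · simp only [h, decide_true, Bool.true_and, decide_eq_decide]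
    omega
  · simp only [h, decide_false, Bool.false_and]
    symm
    rw [decide_eq_false_iff_not]
    omega

theorem allFalse_of_not_sat {τ : ℕ → Prop} {W c : ℕ} (h : ¬ CSat τ W c) : AllFalse τ W c := by
  intro v hv
  constructor
  · intro hb ht
    exact h ⟨v, hv, Or.inl ⟨hb, ht⟩⟩
  · intro hb
    by_contra ht
    exact h ⟨v, hv, Or.inr ⟨hb, ht⟩⟩

/-- a true clause has a literal outside every set of false literals -/
theorem sat_rem {τ : ℕ → Prop} {W c F : ℕ} (hc : CSat τ W c) (hF : AllFalse τ W F) :
    ∃ v, v < W ∧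
      (((Nat.shiftRight (Nat.xor c (Nat.land c F)) 64).testBit v = true ∧ τ v) ∨
       ((Nat.shiftRight (Nat.xor c (Nat.land c F)) 64).testBit (W + v) = true ∧ ¬ τ v)) := by
  obtain ⟨v, hv, h | h⟩ := hc
  · refine ⟨v, hv, Or.inl ⟨?_, h.2⟩⟩
    rw [tb_shr, tb_xor, tb_land, h.1]
    have : F.testBit (64 + v) = false := by
      by_contra hb
      exact (hF v hv).1 (by simpa using hb) h.2
    rw [this]
    rfl
  · refine ⟨v, hv, Or.inr ⟨?_, h.2⟩⟩
    rw [tb_shr, tb_xor, tb_land, ← add_assoc, h.1]
    have : F.testBit (64 + W + v) = false := by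
      by_contra hb
      exact h.2 ((hF v hv).2 (by simpa using hb))
    rw [this]
    rfl

/-- invariant of the machine -/
def Inv (τ : ℕ → Prop) (cl : ℕ → ℕ) (W i F : ℕ) : Prop :=
  (∀ j, j < i → CSat τ W (cl j)) ∧ (¬ CSat τ W (cl i) → AllFalse τ W F)

def IH (τ : ℕ → Prop) (cl : ℕ → ℕ) (W iEnd : ℕ) (ih : ℕ → List ℕ → ℕ → ℕ → Bool) : Prop :=
  ∀ cur rest i F, ih cur rest i F = true → Inv τ cl W i F →
    ∀ j, j < iEnd → CSat τ W (cl j)

theorem tok_sound {τ : ℕ → Prop} {cl : ℕ → ℕ} {W iEnd : ℕ}
    {ih : ℕ → List ℕ → ℕ → ℕ → Bool} (hih : IH τ cl W iEnd ih) {cur : ℕ} {rest : List ℕ}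
    {i F : ℕ} (h : tok ih cl W cur rest i F = true) (hinv : Inv τ cl W i F) :
    ∀ j, j < iEnd → CSat τ W (cl j) := by
  unfold tok at h
  obtain ⟨hlt, h⟩ := of_brec h
  have hid : Nat.land cur 1048575 < i := by
    have := Nat.le_of_ble_eq_true hlt
    exact this
  have hc : CSat τ W (cl (Nat.land cur 1048575)) := hinv.1 _ hid
  generalize cl (Nat.land cur 1048575) = c at h hc
  generalize Nat.land (Nat.shiftRight cur 20) 1023 = k at h
  unfold tok3 at h
  cases hr0 : Nat.beq (Nat.shiftRight (Nat.xor c (Nat.land c F)) 64) 0 with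
  | true =>
    rw [hr0] at h
    have h' : ih (Nat.shiftRight cur 30) rest (Nat.add i 1) (cl (Nat.add i 1)) = true := h
    refine hih _ _ _ _ h' ⟨?_, allFalse_of_not_sat⟩
    have hi : CSat τ W (cl i) := by
      by_contra hns
      obtain ⟨v, -, hv | hv⟩ := sat_rem hc (hinv.2 hns)
      · rw [beq_eq hr0] at hv
        simp at hv
      · rw [beq_eq hr0] at hv
        simp at hv
    intro j hj
    have hj' : j < i + 1 := hj
    rcases Nat.lt_succ_iff_lt_or_eq.1 hj' with hj2 | rfl
    · exact hinv.1 j hj2
    · exact hi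
  | false =>
    rw [hr0] at h
    have h' : @Bool.rec (fun _ => Bool) false
      (ih (Nat.shiftRight cur 30) rest i
        (Nat.lor F (Nat.shiftLeft 18446744073709551616
          (Bool.rec (Nat.sub k W) (Nat.add k W) (Nat.ble (Nat.add k 1) W)))))
      (Nat.beq (Nat.shiftRight (Nat.xor c (Nat.land c F)) 64) (Nat.shiftLeft 1 k)) = true := h
    obtain ⟨hu, h2⟩ := of_brec h'
    refine hih _ _ _ _ h2 ⟨hinv.1, ?_⟩
    intro hns
    have hF := hinv.2 hns
    obtain ⟨v, hv, hv2⟩ := sat_rem hc hF
    rw [beq_eq hu] at hv2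
    simp only [tb_one, decide_eq_true_eq] at hv2
    intro u hu'
    rcases hv2 with ⟨rfl, ht⟩ | ⟨rfl, ht⟩
    · have hb : Nat.ble (Nat.add v 1) W = true := Nat.ble_eq_true_of_le hv
      rw [hb]
      have e : (@Bool.rec (fun _ => ℕ) (Nat.sub v W) (Nat.add v W) true) = v + W := rfl
      rw [e]
      constructor
      · intro hb2
        rw [tb_lor, tb_bit, Bool.or_eq_true, decide_eq_true_eq] at hb2
        rcases hb2 with hb2 | hb2
        · exact (hF u hu').1 hb2
        · omega
      · intro hb2
        rw [tb_lor, tb_bit, Bool.or_eq_true, decide_eq_true_eq] at hb2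
        rcases hb2 with hb2 | hb2
        · exact (hF u hu').2 hb2
        · have : u = v := by omega
          rw [this]
          exact ht
    · have hb : Nat.ble (Nat.add (W + v) 1) W = false := by
        rw [← Bool.not_eq_true]
        intro hle
        have := Nat.le_of_ble_eq_true hle
        have h3 : W + v + 1 ≤ W := this
        omega
      rw [hb]
      have e : (@Bool.rec (fun _ => ℕ) (Nat.sub (W + v) W) (Nat.add (W + v) W) false) = v := by
        show W + v - W = v
        omega
      rw [e]
      constructor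
      · intro hb2
        rw [tb_lor, tb_bit, Bool.or_eq_true, decide_eq_true_eq] at hb2
        rcases hb2 with hb2 | hb2
        · exact (hF u hu').1 hb2
        · have : u = v := by omega
          rw [this]
          exact ht
      · intro hb2
        rw [tb_lor, tb_bit, Bool.or_eq_true, decide_eq_true_eq] at hb2
        rcases hb2 with hb2 | hb2
        · exact (hF u hu').2 hb2
        · omega

theorem run_sound (τ : ℕ → Prop) (cl : ℕ → ℕ) (W iEnd fuel : ℕ) :
    IH τ cl W iEnd (run cl W iEnd fuel) := by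
  induction fuel with
  | zero =>
    intro cur rest i F h
    exact absurd h (by simp [run])
  | succ n ih =>
    intro cur rest i F h hinv
    cases cur with
    | zero =>
      cases rest with
      | nil =>
        have h' : Nat.beq i iEnd = true := h
        rw [← beq_eq h']
        exact hinv.1
      | cons p ps => exact ih p ps i F h hinv
    | succ c => exact tok_sound ih h hinv

theorem checkRange_sound {τ : ℕ → Prop} {cl : ℕ → ℕ} {W i0 i1 fuel : ℕ} {pieces : List ℕ}
    (h : checkRange cl W i0 i1 fuel pieces = true)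
    (h0 : ∀ j, j < i0 → CSat τ W (cl j)) : ∀ j, j < i1 → CSat τ W (cl j) :=
  run_sound τ cl W i1 fuel 0 pieces i0 _ h ⟨h0, allFalse_of_not_sat⟩

theorem not_sat_of_shr {τ : ℕ → Prop} {W c : ℕ} (h : Nat.beq (Nat.shiftRight c 64) 0 = true) :
    ¬ CSat τ W c := by
  rintro ⟨v, -, hv | hv⟩
  · have := congrArg (fun n => n.testBit v) (beq_eq h)
    simp only [tb_shr, Nat.zero_testBit] at this
    rw [this] at hv
    exact absurd hv.1 (by simp)
  · have := congrArg (fun n => n.testBit (W + v)) (beq_eq h)
    simp only [tb_shr, Nat.zero_testBit, ← add_assoc] at this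
    rw [this] at hv
    exact absurd hv.1 (by simp)

end Vale.Agent.P048.Sat
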