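import Vale.Agent.P048.Sat.Fast

/-!
# P048: graph clauses for the fast machine (same `Spec` and `Model` as in `Graph.lean`)
-/

namespace Vale.Agent.P048.Sat.Fast

open Vale.Agent.P048.Sat

section
variable {sp : Spec} {A : ℕ → ℕ → Prop}

theorem posOK_sound (hA : Model sp A) (hW : idx 0 sp.N ≤ sp.W) {c u v : ℕ}
    (h : posOK sp c u v = true) (huv : u < v) (hv : v < sp.N) (ha : A u v) :
    CSat (tauOf A) sp.W c := by
  rcases bor h with h | h
  · exact absurd ha (hA.indep u v (ble_le h) huv hv)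
  · exact ⟨idx u v, lt_of_lt_of_le (idx_lt huv hv) hW, Or.inl ⟨tbit_eq h, (tauOf_idx huv).2 ha⟩⟩

theorem negOK_sound (hA : Model sp A) (hW : idx 0 sp.N ≤ sp.W) {c u v : ℕ}
    (h : negOK sp c u v = true) (huv : u < v) (hv : v < sp.N)
    (hc : ¬ CSat (tauOf A) sp.W c) : A u v := by
  rcases bor h with h | h
  · exact isE_sound hA h
  · by_contra ha
    exact hc ⟨idx u v, lt_of_lt_of_le (idx_lt huv hv) hW,
      Or.inr ⟨tbit_eq h, fun ht => ha ((tauOf_idx huv).1 ht)⟩⟩

theorem edgeOK_sound (hA : Model sp A) (hW : idx 0 sp.N ≤ sp.W) {c u v : ℕ}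
    (h : edgeOK sp c u v = true) (hu : u < sp.N) (hv : v < sp.N)
    (hc : ¬ CSat (tauOf A) sp.W c) : A u v := by
  unfold edgeOK at h
  cases hb : Nat.ble (Nat.add u 1) v with
  | true =>
    rw [hb] at h
    exact negOK_sound hA hW h (ble_lt hb) hv hc
  | false =>
    rw [hb] at h
    obtain ⟨h1, h2⟩ := band h
    exact hA.symm _ _ (negOK_sound hA hW h2 (ble_lt h1) hu hc)

theorem chainOK_sound (hA : Model sp A) (hW : idx 0 sp.N ≤ sp.W) {c h0 : ℕ}
    (hc : ¬ CSat (tauOf A) sp.W c) (tl : List ℕ) : ∀ prev, chainOK sp c h0 tl prev = true →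
    (∀ z ∈ prev :: tl, z < sp.N) →
    (prev :: tl).IsChain A ∧ ∃ last, (prev :: tl).getLast? = some last ∧ last < sp.N ∧
      endOK sp c h0 last = true := by
  induction tl with
  | nil =>
    intro prev h hN
    exact ⟨List.isChain_singleton _, prev, rfl, hN prev (by simp), h⟩
  | cons v tl ih =>
    intro prev h hN
    obtain ⟨h1, h2⟩ := band h
    obtain ⟨h3, last, h4, h5, h6⟩ := ih v h2 (fun z hz => hN z (List.mem_cons_of_mem _ hz))
    refine ⟨List.IsChain.cons_cons (edgeOK_sound hA hW h1 (hN prev (by simp)) (hN v (by simp)) hc)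
      h3, last, ?_, h5, h6⟩
    rw [List.getLast?_cons_cons]
    exact h4

theorem seqOK_sound (hA : Model sp A) (hW : idx 0 sp.N ≤ sp.W) {c t : ℕ} {q : List ℕ}
    (hq : q.length = t) (h : seqOK sp c t q = true) : CSat (tauOf A) sp.W c := by
  by_contra hc
  obtain ⟨h1, h2⟩ := band h
  obtain ⟨hL0, hL1⟩ := band h1
  obtain ⟨h2, h3⟩ := band h2
  obtain ⟨hnd, hN⟩ := ndOK_sound q 0 h2
  cases q with
  | nil => exact absurd h3 (by simp)
  | cons h0 tl =>
    have h3' : chainOK sp c h0 tl h0 = true := h3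
    obtain ⟨hch, last, hlast, hlN, hend⟩ :=
      chainOK_sound hA hW hc tl h0 h3' (fun z hz => (hN z hz).1)
    unfold endOK at hend
    cases hcy : sp.cyc with
    | true =>
      rw [hcy] at hend
      exact hA.forbC hcy (h0 :: tl) hnd (fun z hz => (hN z hz).1) (by rw [hq]; exact ble_le hL0)
        (by rw [hq]; exact ble_le hL1) hch h0 last rfl hlast
        (edgeOK_sound hA hW hend hlN ((hN h0 (by simp)).1) hc)
    | false =>
      rw [hcy] at hend
      obtain ⟨e1, e2⟩ := band hend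
      have e1' : h0 = sp.x := beq_eq e1
      have e2' : last = sp.y := beq_eq e2
      exact hA.forbP hcy (h0 :: tl) hnd (fun z hz => (hN z hz).1) (by rw [hq]; exact ble_le hL0)
        (by rw [hq]; exact ble_le hL1) hch (by rw [← e1']; rfl) (by rw [← e2']; exact hlast)

theorem alphaOK_sound (hA : Model sp A) (hW : idx 0 sp.N ≤ sp.W) {c : ℕ} {s : List ℕ}
    (hs : s.length = sp.a + 1) (h : alphaOK sp c s = true) : CSat (tauOf A) sp.W c := by
  obtain ⟨h1, h2⟩ := band h
  obtain ⟨h3, h4⟩ := incOK_sound s 0 h1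
  obtain ⟨u, hu, v, hv, huv, ha⟩ := hA.alpha s h3 hs (fun z hz => (h4 z hz).2)
  exact posOK_sound hA hW (pairsOK_sound s h2 h3 u hu v hv huv) huv (h4 v hv).2 ha

theorem firstOK_sound (hA : Model sp A) (hW : idx 0 sp.N ≤ sp.W) {c i j : ℕ}
    (h : firstOK sp c i j = true) : CSat (tauOf A) sp.W c := by
  obtain ⟨h1, h2⟩ := band h
  obtain ⟨hl, h1⟩ := band h1
  obtain ⟨hj, h1⟩ := band h1
  obtain ⟨hjN, hi⟩ := band h1
  obtain ⟨hneg, hpos⟩ := band h2
  have hl' := ble_le hl
  have hj' := ble_le hj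
  have hjN' : j + 1 < sp.N := ble_lt hjN
  have hi' : i < sp.l := ble_lt hi
  by_cases ha : A i (j + 1)
  · obtain ⟨i', hi2, ha2⟩ := hA.firstNb j hj' hjN' i hi' ha
    have hlt : i' < j := by omega
    exact ⟨idx i' j, lt_of_lt_of_le (idx_lt hlt (by omega)) hW,
      Or.inl ⟨prefOK_sound _ hpos i' (Nat.lt_succ_of_le hi2), (tauOf_idx hlt).2 ha2⟩⟩
  · have hlt : i < j + 1 := by omega
    exact ⟨idx i (j + 1), lt_of_lt_of_le (idx_lt hlt hjN') hW,
      Or.inr ⟨tbit_eq hneg, fun ht => ha ((tauOf_idx hlt).1 ht)⟩⟩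

theorem inOK_sound (hA : Model sp A) (hW : idx 0 sp.N ≤ sp.W) {c w : ℕ}
    (h : inOK sp c w = true) : CSat (tauOf A) sp.W c := by
  unfold inOK at h
  generalize Nat.land w 3 = t at h
  rcases t with _ | _ | _ | t
  · exact alphaOK_sound hA hW (unpack_length _ _) h
  · exact seqOK_sound hA hW (unpack_length _ _) h
  · exact firstOK_sound hA hW h
  · exact absurd h (by simp)

theorem runIn_sound (hA : Model sp A) (hW : idx 0 sp.N ≤ sp.W) {cl : ℕ → ℕ} {iEnd : ℕ}
    (ws : List ℕ) : ∀ i, runIn sp cl iEnd ws i = true →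
    (∀ j, j < i → CSat (tauOf A) sp.W (cl j)) →
    ∀ j, j < iEnd → CSat (tauOf A) sp.W (cl j) := by
  induction ws with
  | nil =>
    intro i h h0
    have e : i = iEnd := beq_eq h
    rw [← e]
    exact h0
  | cons w ws ih =>
    intro i h h0
    obtain ⟨h1, h2⟩ := band h
    refine ih (i + 1) h2 ?_
    intro j hj
    rcases Nat.lt_succ_iff_lt_or_eq.1 hj with hj | rfl
    · exact h0 j hj
    · exact inOK_sound hA hW h1

theorem checkIn_sound (hA : Model sp A) {cl : ℕ → ℕ} {i0 i1 : ℕ} {ws : List ℕ}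
    (h : checkIn sp cl i0 i1 ws = true)
    (h0 : ∀ j, j < i0 → CSat (tauOf A) sp.W (cl j)) :
    ∀ j, j < i1 → CSat (tauOf A) sp.W (cl j) := by
  obtain ⟨h1, h2⟩ := band h
  exact runIn_sound hA (ble_le h1) ws i0 h2 h0

end

end Vale.Agent.P048.Sat.Fast
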