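import Vale.Agent.P048.Sat.Graph

/-!
# P048: clause-proof machine, interleaved layout

Layout of a clause: bit `64 + 2 v` is the positive literal of the variable `v`, bit
`64 + (2 v xor 1)` the negative one.
-/

namespace Vale.Agent.P048.Sat.Turbo

/-- the clause `c` is true under `τ` -/
def CSat (τ : ℕ → Prop) (c : ℕ) : Prop :=
  ∃ v, (c.testBit (64 + 2 * v) = true ∧ τ v) ∨ (c.testBit (64 + (2 * v ^^^ 1)) = true ∧ ¬ τ v)

/-- all literals of `F` are false under `τ` -/
def AllFalse (τ : ℕ → Prop) (F : ℕ) : Prop :=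
  ∀ v, (F.testBit (64 + 2 * v) = true → ¬ τ v) ∧ (F.testBit (64 + (2 * v ^^^ 1)) = true → τ v)

theorem fetch_eq (cl : ℕ → ℕ) (id : ℕ) : fetch cl id = cl id := by
  cases id <;> rfl

theorem allFalse_of_not_sat {τ : ℕ → Prop} {c : ℕ} (h : ¬ CSat τ c) : AllFalse τ c := by
  intro v
  constructor
  · intro hb ht
    exact h ⟨v, Or.inl ⟨hb, ht⟩⟩
  · intro hb
    by_contra ht
    exact h ⟨v, Or.inr ⟨hb, ht⟩⟩

theorem sat_rem {τ : ℕ → Prop} {c F : ℕ} (hc : CSat τ c) (hF : AllFalse τ F) :
    ∃ v,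
      (((Nat.shiftRight (Nat.xor c (Nat.land c F)) 64).testBit (2 * v) = true ∧ τ v) ∨
       ((Nat.shiftRight (Nat.xor c (Nat.land c F)) 64).testBit (2 * v ^^^ 1) = true ∧ ¬ τ v)) := by
  obtain ⟨v, h | h⟩ := hc
  · refine ⟨v, Or.inl ⟨?_, h.2⟩⟩
    rw [tb_shr, tb_xor, tb_land, h.1]
    have : F.testBit (64 + 2 * v) = false := by
      by_contra hb
      exact (hF v).1 (by simpa using hb) h.2
    rw [this]
    rfl
  · refine ⟨v, Or.inr ⟨?_, h.2⟩⟩
    rw [tb_shr, tb_xor, tb_land, h.1]
    have : F.testBit (64 + (2 * v ^^^ 1)) = false := by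
      by_contra hb
      exact h.2 ((hF v).2 (by simpa using hb))
    rw [this]
    rfl

theorem xor_ne (u v : ℕ) : 2 * u ≠ 2 * v ^^^ 1 := by
  intro h
  have h1 := congrArg (fun n => n.testBit 0) h
  simp [Nat.testBit_zero] at h1

theorem xor_cancel {u v W : ℕ} (h : u ^^^ W = v ^^^ W) : u = v := by
  have h1 := congrArg (fun n => n ^^^ W) h
  simpa using h1

theorem xor_xor (v W : ℕ) : (v ^^^ W) ^^^ W = v := by
  simp

/-- invariant of the machine -/
def Inv (τ : ℕ → Prop) (cl : ℕ → ℕ) (j F : ℕ) : Prop :=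
  (∀ t, t < j + 1 → CSat τ (cl t)) ∧ (¬ CSat τ (cl (j + 1)) → AllFalse τ F)

def IH (τ : ℕ → Prop) (cl : ℕ → ℕ) (jEnd : ℕ) (ih : ℕ → List ℕ → ℕ → ℕ → Bool) : Prop :=
  ∀ cur rest j F, ih cur rest j F = true → Inv τ cl j F →
    ∀ t, t < jEnd + 1 → CSat τ (cl t)

theorem tok_sound {τ : ℕ → Prop} {cl : ℕ → ℕ} {jEnd : ℕ}
    {ih : ℕ → List ℕ → ℕ → ℕ → Bool} (hih : IH τ cl jEnd ih) {cur : ℕ} {rest : List ℕ}
    {j F w : ℕ} (h : tokA ih cl cur rest j F w = true) (hinv : Inv τ cl j F) :
    ∀ t, t < jEnd + 1 → CSat τ (cl t) := by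
  unfold tokA at h
  rw [fetch_eq] at h
  have hid : Nat.sub j (Nat.land w 16777215) < j + 1 :=
    Nat.lt_succ_of_le (Nat.sub_le j _)
  have hc : CSat τ (cl (Nat.sub j (Nat.land w 16777215))) := hinv.1 _ hid
  generalize cl (Nat.sub j (Nat.land w 16777215)) = c at h hc
  generalize Nat.shiftRight w 24 = k at h
  unfold tokB at h
  generalize hr : Nat.shiftRight (Nat.xor c (Nat.land c F)) 64 = r at h
  cases r with
  | zero =>
    have h' : ih (Nat.shiftRight cur 34) rest (Nat.add j 1) (cl (Nat.add j 2)) = true := h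
    refine hih _ _ _ _ h' ⟨?_, allFalse_of_not_sat⟩
    have hi : CSat τ (cl (j + 1)) := by
      by_contra hns
      obtain ⟨v, hv | hv⟩ := sat_rem hc (hinv.2 hns)
      · rw [hr] at hv
        simp at hv
      · rw [hr] at hv
        simp at hv
    intro t ht
    have ht' : t < j + 1 + 1 := ht
    rcases Nat.lt_succ_iff_lt_or_eq.1 ht' with ht2 | rfl
    · exact hinv.1 t ht2
    · exact hi
  | succ r' =>
    have h' : @Bool.rec (fun _ => Bool) false
      (ih (Nat.shiftRight cur 34) rest j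
        (Nat.lor F (Nat.shiftLeft 18446744073709551616 (Nat.xor k 1))))
      (Nat.beq (r' + 1) (Nat.shiftLeft 1 k)) = true := h
    obtain ⟨hu, h2⟩ := of_brec h'
    refine hih _ _ _ _ h2 ⟨hinv.1, ?_⟩
    intro hns
    have hF := hinv.2 hns
    obtain ⟨v, hv2⟩ := sat_rem hc hF
    rw [hr, beq_eq hu] at hv2
    simp only [tb_one, decide_eq_true_eq] at hv2
    intro u
    have ex : Nat.xor k 1 = k ^^^ 1 := rfl
    rw [ex]
    rcases hv2 with ⟨rfl, ht⟩ | ⟨rfl, ht⟩
    · constructor
      · intro hb2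
        rw [tb_lor, tb_bit, Bool.or_eq_true, decide_eq_true_eq] at hb2
        rcases hb2 with hb2 | hb2
        · exact (hF u).1 hb2
        · exact absurd (Nat.add_left_cancel hb2) (xor_ne u v)
      · intro hb2
        rw [tb_lor, tb_bit, Bool.or_eq_true, decide_eq_true_eq] at hb2
        rcases hb2 with hb2 | hb2
        · exact (hF u).2 hb2
        · have e1 : 2 * u = 2 * v := xor_cancel (Nat.add_left_cancel hb2)
          have e2 : u = v := by omega
          rw [e2]
          exact ht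
    · rw [xor_xor]
      constructor
      · intro hb2
        rw [tb_lor, tb_bit, Bool.or_eq_true, decide_eq_true_eq] at hb2
        rcases hb2 with hb2 | hb2
        · exact (hF u).1 hb2
        · have e2 : u = v := by omega
          rw [e2]
          exact ht
      · intro hb2
        rw [tb_lor, tb_bit, Bool.or_eq_true, decide_eq_true_eq] at hb2
        rcases hb2 with hb2 | hb2
        · exact (hF u).2 hb2
        · exact absurd (Nat.add_left_cancel hb2).symm (xor_ne v u)

theorem run_sound (τ : ℕ → Prop) (cl : ℕ → ℕ) (jEnd fuel : ℕ) :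
    IH τ cl jEnd (run cl jEnd fuel) := by
  induction fuel with
  | zero =>
    intro cur rest j F h
    exact absurd h (by simp [run])
  | succ n ih =>
    intro cur rest j F h hinv
    have h1 : @Nat.rec (fun _ => Bool)
        (List.rec (Nat.beq j jEnd) (fun p ps _ => run cl jEnd n p ps j F) rest)
        (fun w _ => tokA (run cl jEnd n) cl cur rest j F w)
        (Nat.land cur 17179869183) = true := h
    generalize Nat.land cur 17179869183 = w at h1
    cases w with
    | zero =>
      cases rest with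
      | nil =>
        have h' : Nat.beq j jEnd = true := h1
        rw [← beq_eq h']
        exact hinv.1
      | cons p ps => exact ih p ps j F h1 hinv
    | succ w => exact tok_sound ih h1 hinv

theorem checkRange_sound {τ : ℕ → Prop} {cl : ℕ → ℕ} {j0 j1 fuel : ℕ}
    {pieces : List ℕ} (h : checkRange cl j0 j1 fuel pieces = true)
    (h0 : ∀ t, t < j0 + 1 → CSat τ (cl t)) : ∀ t, t < j1 + 1 → CSat τ (cl t) :=
  run_sound τ cl j1 fuel 0 pieces j0 _ h ⟨h0, allFalse_of_not_sat⟩

theorem not_sat_of_shr {τ : ℕ → Prop} {c : ℕ} (h : Nat.beq (Nat.shiftRight c 64) 0 = true) :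
    ¬ CSat τ c := by
  rintro ⟨v, hv | hv⟩
  · have := congrArg (fun n => n.testBit (2 * v)) (beq_eq h)
    simp only [tb_shr, Nat.zero_testBit] at this
    rw [this] at hv
    exact absurd hv.1 (by simp)
  · have := congrArg (fun n => n.testBit (2 * v ^^^ 1)) (beq_eq h)
    simp only [tb_shr, Nat.zero_testBit] at this
    rw [this] at hv
    exact absurd hv.1 (by simp)

end Vale.Agent.P048.Sat.Turbo
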